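import Vale.Agent.Lib.P064Two.Fiber
import Vale.Agent.Lib.P064Int.Params

/-!
The count over a minimal set which is not low, with a weight `W` on the small rooms.
-/

open Finset

namespace Vale.Agent.Lib.P064

open scoped Classical

variable {V α : Type} [Fintype V] [Fintype α] {H : SimpleGraph V} {F : SimpleGraph α} {n : ℕ}
  {q : ℝ}

/-- The count over a minimal set which is not low, under separation. -/
theorem w_fiber {δ δa W : ℝ} {μ₀ : ℕ} (hG : GoodDensity n q H) (hn : 2 ≤ n) (hV : Fintype.card V ≤ n)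
    (hq0 : 0 < q) (hqe : q ≤ Real.exp (-1)) (hL : 1 ≤ Real.log n) (hD : 1 ≤ (n : ℝ) * q)
    (hδ0 : 0 < δ) (hδ1 : δ ≤ 1) (hδa0 : 0 < δa) (hδa1 : δa ≤ 1) (hμ₀ : 2 ≤ μ₀)
    (hlam : δa * Real.log n ≤ - Real.log q) (hsep : WSep n q δ (4 * (μ₀ : ℝ) / δa) W μ₀) (hW : 1 ≤ W)
    (hbig : 4 * (μ₀ : ℝ) ≤ δa * δ * Real.log n)
    {E I : Finset α} (hdisj : Disjoint I E) (hne : I.Nonempty)
    (hτ : 1 ≤ (n : ℝ) ^ I.card * (Real.exp 1 * q) ^ eT F (E ∪ I) I)
    (hmin : ∀ J ⊆ I, J.Nonempty → J ≠ I → Low n q F (E ∪ I) J)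
    {S : Finset (α → V)} (hinj : ∀ φ ∈ S, Function.Injective φ)
    (hhom : ∀ φ ∈ S, ∀ u v, F.Adj u v → H.Adj (φ u) (φ v))
    {φ₀ : α → V} (hagree : ∀ φ ∈ S, ∀ x ∈ E, φ x = φ₀ x) :
    ((S.image (proj (E ∪ I))).card : ℝ) ≤
      xA ^ I.card * zK (zD δa δ μ₀) μ₀ n ^ (newE F E I).card *
        (W ^ (newE F E I).card * ((n : ℝ) ^ I.card * q ^ (newE F E I).card)) := by
  have hD1 : 1 ≤ zD δa δ μ₀ := one_le_zD hδa0 hδ0
  have hn2 : (2 : ℝ) ≤ n := by exact_mod_cast hn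
  have hn1 : (1 : ℝ) ≤ n := by linarith
  have hn0 : (0 : ℝ) < n := by linarith
  have hn' : 1 ≤ n := by omega
  have hL0 : 0 ≤ Real.log n := by linarith
  have hq1 : q ≤ 1 := hqe.trans (by rw [Real.exp_le_one_iff]; norm_num)
  have hμ1 : 1 ≤ μ₀ := by omega
  have hμR : (1 : ℝ) ≤ μ₀ := by exact_mod_cast hμ1
  have hμ0 : (0 : ℝ) < μ₀ := by linarith
  have hK1 := one_le_zK (D' := zD δa δ μ₀) (μ₀ := μ₀) (n := n) hD1 hL
  have hA1 := one_le_xA
  have hE2 : 0 < Real.exp 2 := Real.exp_pos _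
  have hτ' := hτ
  rw [eT_union_self hdisj] at hτ'
  by_cases hS : S.Nonempty
  swap
  · rw [Finset.not_nonempty_iff_eq_empty] at hS
    rw [hS]
    simp only [Finset.image_empty, Finset.card_empty, Nat.cast_zero]
    have hA0 : 0 ≤ xA := by linarith
    positivity
  have ha1 : 1 ≤ I.card := Finset.card_pos.2 hne
  by_cases ha : I.card = 1
  · -- a single vertex
    obtain ⟨z, rfl⟩ := Finset.card_eq_one.1 ha
    have hzE : z ∉ E := Finset.disjoint_left.1 hdisj (Finset.mem_singleton_self z)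
    rw [Finset.card_singleton] at hτ' ⊢
    rw [pow_one] at hτ' ⊢
    obtain ⟨hmb, hρ⟩ := w_notlow (j := 1) (m := (newE F E {z}).card) hq0 hL hδ0 hδ1 hδa0 hlam hsep
      hbig le_rfl (by omega) hn' (by simpa using hτ')
    rw [pow_one] at hρ
    set m := (newE F E {z}).card with hm
    have hW0 : 0 < W ^ m := by positivity
    have hW1 : 1 ≤ W ^ m := one_le_pow₀ hW
    have hlight : ∀ d : ℕ, 1 ≤ d → d < m + 1 →
        (d : ℝ) * Real.log n ≤ (Real.exp 2 * W ^ m) * ((n : ℝ) * q ^ d) := by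
      intro d _ hd2
      have hdm : d ≤ m := by omega
      have hdmR : (d : ℝ) ≤ m := by exact_mod_cast hdm
      have h1 : q ^ m ≤ q ^ d := pow_le_pow_of_le_one hq0.le hq1 hdm
      have h2 : W ^ m * ((n : ℝ) * q ^ m) ≤ W ^ m * ((n : ℝ) * q ^ d) :=
        mul_le_mul_of_nonneg_left (mul_le_mul_of_nonneg_left h1 hn0.le) hW0.le
      have h3 : (d : ℝ) * Real.log n ≤ (4 * (μ₀ : ℝ) / δa) * Real.log n := by
        apply mul_le_mul_of_nonneg_right _ hL0
        have h4 : 2 * (μ₀ : ℝ) / δa ≤ 4 * (μ₀ : ℝ) / δa := by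
          apply div_le_div_of_nonneg_right _ hδa0.le
          linarith
        linarith
      have h5 : (1 : ℝ) ≤ Real.exp 2 := Real.one_le_exp (by norm_num)
      have h6 : 0 ≤ W ^ m * ((n : ℝ) * q ^ d) := by positivity
      calc (d : ℝ) * Real.log n ≤ W ^ m * ((n : ℝ) * q ^ d) := by linarith
        _ = 1 * (W ^ m * ((n : ℝ) * q ^ d)) := by ring
        _ ≤ Real.exp 2 * (W ^ m * ((n : ℝ) * q ^ d)) := mul_le_mul_of_nonneg_right h5 h6
        _ = _ := by ring
    have hA2 : Real.exp 2 ≤ Real.exp 2 * W ^ m := le_mul_of_one_le_right (Real.exp_pos _).le hW1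
    have h1 := peel_light (κ := 1) (A := Real.exp 2 * W ^ m) hG hq0 hq1 hn' hV hA2 le_rfl (m + 1) hlight
      hzE (by omega) S hinj hhom hagree
    rw [← hm] at h1
    simp only [one_pow, mul_one] at h1
    refine h1.trans ?_
    have h2 : Real.exp 2 ≤ xA := by
      unfold xA
      exact Real.exp_le_exp.2 (by norm_num)
    have h3 : (1 : ℝ) ≤ zK (zD δa δ μ₀) μ₀ n ^ m := one_le_pow₀ hK1
    have h4 : Real.exp 2 ≤ xA * zK (zD δa δ μ₀) μ₀ n ^ m := by nlinarith
    rw [pow_one]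
    calc Real.exp 2 * W ^ m * ((n : ℝ) * q ^ m) = Real.exp 2 * (W ^ m * ((n : ℝ) * q ^ m)) := by ring
      _ ≤ _ := mul_le_mul_of_nonneg_right h4 (by positivity)
  -- at least two vertices
  have ha2 : 2 ≤ I.card := by omega
  have hconn := conn_of_min hn' hq0 hqe hdisj hτ hmin
  have hdeg : ∀ w ∈ I, 2 ≤ dW F (E ∪ I) w := by
    intro w hw
    have hsub : ({w} : Finset α) ⊆ I := Finset.singleton_subset_iff.2 hw
    have hne' : ({w} : Finset α) ≠ I := by
      intro h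
      rw [← h, Finset.card_singleton] at ha
      exact ha rfl
    have := low_card_lt hq0 hqe hD (hmin {w} hsub (Finset.singleton_nonempty w) hne')
    rw [Finset.card_singleton] at this
    exact this
  have hsum := sum_dW_add_core (F := F) E I hdisj
  have h2a : 2 * I.card ≤ ∑ w ∈ I, dW F (E ∪ I) w := by
    calc 2 * I.card = ∑ _w ∈ I, 2 := by simp [mul_comm]
      _ ≤ _ := Finset.sum_le_sum hdeg
  have ham : I.card ≤ (newE F E I).card := by omega
  have hb2m : (core F E I).card ≤ 2 * (newE F E I).card := by omega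
  have hm1 : 1 ≤ (newE F E I).card := by omega
  have hρexp : Real.exp (-((newE F E I).card : ℝ)) ≤ (n : ℝ) ^ I.card * q ^ (newE F E I).card :=
    tau_exp hq0 hτ'
  have hρ0 : 0 ≤ (n : ℝ) ^ I.card * q ^ (newE F E I).card := by positivity
  have hbig2 : 2 * (μ₀ : ℝ) ≤ δ * Real.log n := by
    have h1 : δa * δ ≤ 1 * δ := mul_le_mul_of_nonneg_right hδa1 hδ0.le
    have h2 : δa * δ * Real.log n ≤ (1 * δ) * Real.log n := mul_le_mul_of_nonneg_right h1 hL0
    linarith
  obtain ⟨w, M, c, T, hw, hs, hT, h2T, hcT, hμ3⟩ :=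
    w_params (H := H) hn' hq0 hqe hG hD hL hδ0 hδ1 hμ1 hδa0 hlam hsep hbig2
  have hpin : ∀ x' ∈ I, ∀ y,
      (((S.filter (fun φ => φ x' = y)).image (proj (E ∪ I))).card : ℝ) ≤
        Real.exp (2 * ((newE F E I).card : ℝ)) * xCc (zD δa δ μ₀) ^ (newE F E I).card *
          Real.exp ((I.card : ℝ) * Real.log (Real.log n * Real.log n) / μ₀) := by
    intro x' hx' y
    exact y_pinned hG hn' hV hq0 hqe hD hL hw hs hT h2T (D' := zD δa δ μ₀) hD1 hcT hμ0 hμ3
      hdisj hmin hinj hhom hagree hx' y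
  have hP0 : 0 ≤ Real.exp (2 * ((newE F E I).card : ℝ)) * xCc (zD δa δ μ₀) ^ (newE F E I).card *
      Real.exp ((I.card : ℝ) * Real.log (Real.log n * Real.log n) / μ₀) := by
    have := one_le_xCc hD1
    positivity
  obtain ⟨t, ht1, hdich, hcount⟩ := cover_pinned hG hq0 hq1 hn' hne hdisj hm1 S hS hinj hhom
    hagree hP0 hpin
  refine hcount.trans ?_
  have ht0 : (0 : ℝ) ≤ t := Nat.cast_nonneg t
  have hWm : 1 ≤ W ^ (newE F E I).card := one_le_pow₀ hW
  have hρW0 : 0 ≤ W ^ (newE F E I).card * ((n : ℝ) ^ I.card * q ^ (newE F E I).card) := by positivity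
  have hρW : (n : ℝ) ^ I.card * q ^ (newE F E I).card ≤
      W ^ (newE F E I).card * ((n : ℝ) ^ I.card * q ^ (newE F E I).card) :=
    le_mul_of_one_le_left hρ0 hWm
  have hfin_A : (t : ℝ) ≤ Real.exp 2 * (W ^ (newE F E I).card *
      ((n : ℝ) ^ I.card * q ^ (newE F E I).card)) → _ :=
    fun h => z_final_A (D' := zD δa δ μ₀) (μ₀ := μ₀) (n := n) hD1 hμ1 hL ham hρW0 ht0 h ha1
  rcases hdich with h | h
  · by_cases hcase : μ₀ ≤ I.card
    · have hB := z_final_B hD1 hμ1 hL ham hm1 hb2m hcase hρexp ht0 h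
      refine hB.trans ?_
      have hK0 : 0 ≤ xA ^ I.card * zK (zD δa δ μ₀) μ₀ n ^ (newE F E I).card := by
        have : 0 ≤ xA := by linarith
        positivity
      exact mul_le_mul_of_nonneg_left hρW hK0
    · -- few vertices: the room is large
      push Not at hcase
      obtain ⟨hmb, hρ⟩ := w_notlow (W := W) hq0 hL hδ0 hδ1 hδa0 hlam hsep hbig ha1 hcase hn' hτ'
      apply hfin_A
      have hbR : ((core F E I).card : ℝ) ≤ 4 * (μ₀ : ℝ) / δa := by
        have h1 : ((core F E I).card : ℝ) ≤ 2 * ((newE F E I).card : ℝ) := by exact_mod_cast hb2m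
        have h2 : 2 * (2 * (μ₀ : ℝ) / δa) = 4 * (μ₀ : ℝ) / δa := by ring
        linarith
      have h3 : (t : ℝ) ≤ (4 * (μ₀ : ℝ) / δa) * Real.log n :=
        h.trans (mul_le_mul_of_nonneg_right hbR hL0)
      have h4 : (1 : ℝ) ≤ Real.exp 2 := Real.one_le_exp (by norm_num)
      calc (t : ℝ) ≤ W ^ (newE F E I).card * ((n : ℝ) ^ I.card * q ^ (newE F E I).card) := by linarith
        _ = 1 * (W ^ (newE F E I).card * ((n : ℝ) ^ I.card * q ^ (newE F E I).card)) := by ring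
        _ ≤ _ := mul_le_mul_of_nonneg_right h4 hρW0
  · apply hfin_A
    have h5 : (1 : ℝ) ≤ Real.exp 2 := Real.one_le_exp (by norm_num)
    exact h.trans (mul_le_mul_of_nonneg_left hρW (by positivity))

end Vale.Agent.Lib.P064
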