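import Vale.Agent.Lib.P064Int.Main
import Vale.Agent.Lib.P064Two.Final

/-!
The thresholds under the one-sided separation. With `P = max (p_E, 1 / n)`, `a = log (1 / P) / log n`: if
for all `1 ≤ j < u`, `m ≥ 1` either `m a ≥ j + δ` or `n^j P^m ≥ (8 u / a) log n`, the loss per edge is at
most `C (a δ)^(-3) (log n)^(3 / u)`.
-/

open Finset

namespace Vale.Agent.Lib.P064Int

open Vale.Agent.Lib.P064 Vale.Agent.Lib.P064E Vale.Agent.Lib.P064U Vale.Agent.Lib.P064T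
  Vale.Agent.Lib.P064Sep Vale.Agent.Lib.P064Two
open scoped Classical

/-- The separation at `q`. -/
lemma w_zsep {n : ℕ} {q P δ a x θ lam W : ℝ} {u : ℕ} (hδ : 0 < δ) (hδ1 : δ ≤ 1) (ha0 : 0 < a)
    (hu : 2 ≤ u) (hn0 : (0 : ℝ) < n)
    (hx : x = Real.log n) (hlam : lam = - Real.log q) (hx0 : 0 < x) (hθ0 : 0 ≤ θ) (hP0 : 0 < P)
    (hPq : P ≤ q) (hθL : 4 * ((u : ℝ) + 1) * θ ≤ a * δ * x) (hlamlo : a * x - θ ≤ lam)
    (hn1 : 8 * (u : ℝ) / a * x ≤ Real.exp x)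
    (hW : 1 ≤ W)
    (hsep : ∀ j m : ℕ, 1 ≤ j → j < u → 1 ≤ m →
      (j : ℝ) + δ ≤ (m : ℝ) * a ∨
        (1 ≤ (n : ℝ) ^ j * P ^ m ∧ 8 * (u : ℝ) / a * x ≤ W ^ m * ((n : ℝ) ^ j * P ^ m))) :
    WSep n q (δ / 2) (4 * (u : ℝ) / (a / 2)) W u := by
  have huR : (2 : ℝ) ≤ u := by exact_mod_cast hu
  have he : 4 * (u : ℝ) / (a / 2) = 8 * (u : ℝ) / a := by
    field_simp
    ring
  rw [he]
  intro j m hj1 hj
  rw [← hx, ← hlam]
  have hjR : (j : ℝ) + 1 ≤ u := by exact_mod_cast hj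
  by_cases hm : 1 ≤ m
  · rcases hsep j m hj1 hj hm with h | h
    · left
      exact z_sep_up hδ1 ha0 hδ hθ0 hx0 (by linarith) hθL hlamlo hjR h
    · right
      have hmono : (n : ℝ) ^ j * P ^ m ≤ (n : ℝ) ^ j * q ^ m := by
        apply mul_le_mul_of_nonneg_left _ (by positivity)
        exact pow_le_pow_left₀ hP0.le hPq m
      refine ⟨h.1.trans hmono, h.2.trans ?_⟩
      exact mul_le_mul_of_nonneg_left hmono (by positivity)
  · right
    have hm0 : m = 0 := by omega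
    subst hm0
    simp only [pow_zero, mul_one, one_mul]
    have h1 : Real.exp x = n := by
      rw [hx]
      exact Real.exp_log hn0
    rw [h1] at hn1
    have hn01 : (1 : ℝ) ≤ n := by
      rw [← h1]
      exact Real.one_le_exp hx0.le
    have hnj : (n : ℝ) ≤ (n : ℝ) ^ j := by
      calc (n : ℝ) = (n : ℝ) ^ 1 := (pow_one _).symm
        _ ≤ _ := pow_le_pow_right₀ hn01 hj1
    exact ⟨hn01.trans hnj, hn1.trans hnj⟩

/-- The last step: from the embedding bound to the thresholds. -/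
lemma w_conclude {n D' : ℕ} {V : Type} [Fintype V] {H : SimpleGraph V} {P q x Y A C W : ℝ} {u : ℕ}
    (hn2 : 2 ≤ n) (hV : Fintype.card V ≤ n) (hH : H ≠ ⊥) (hx : x = Real.log n) (hx1 : 1 ≤ x)
    (hP0 : 0 < P) (hq0 : 0 < q) (hq4 : q ≤ 4 * P) (hD1 : 1 ≤ D') (hY : Y = x ^ ((3 : ℝ) / u))
    (hY1 : 1 ≤ Y) (hA : A = (xA * Real.exp 1) ^ 2 * zC D' * 4)
    (hC1 : A ≤ C) (hC2 : 512 * A ≤ C)
    (hW : 1 ≤ W)
    (hemb : EmbBound n H ((xA * Real.exp 1) ^ 2 * (W * zK D' u n) * q)) :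
    pTilde n H ≤ C * (W * (P * Y)) ∧ pc n H ≤ C * x * (W * (P * Y)) := by
  have hx0 : 0 < x := by linarith
  have hW0 : 0 < W := by linarith
  have hyC := one_le_zC hD1
  have hxA := one_le_xA
  have hKY : zK D' u n = zC D' * Y := by
    unfold zK
    rw [hY, ← hx, Real.rpow_def_of_pos hx0]
    congr 2
    ring
  rw [hKY] at hemb
  obtain ⟨Θ, hΘdef⟩ : ∃ Θ, Θ = (xA * Real.exp 1) ^ 2 * (W * (zC D' * Y)) * q := ⟨_, rfl⟩
  rw [← hΘdef] at hemb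
  have hyC0 : 0 < zC D' := by linarith
  have hxA0 : 0 < xA := by linarith
  have hY0 : 0 < Y := by linarith
  have hΘ0 : 0 < Θ := by
    rw [hΘdef]
    positivity
  have hPY : 0 < W * (P * Y) := by positivity
  have hΘle : Θ ≤ A * (W * (P * Y)) := by
    rw [hΘdef, hA]
    have h2 : (xA * Real.exp 1) ^ 2 * (W * (zC D' * Y)) * q ≤
        (xA * Real.exp 1) ^ 2 * (W * (zC D' * Y)) * (4 * P) :=
      mul_le_mul_of_nonneg_left hq4 (by positivity)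
    calc _ ≤ _ := h2
      _ = _ := by ring
  constructor
  · calc pTilde n H ≤ Θ := pTilde_le_of_embBound hV hΘ0 hemb
      _ ≤ A * (W * (P * Y)) := hΘle
      _ ≤ C * (W * (P * Y)) := mul_le_mul_of_nonneg_right hC1 hPY.le
  · calc pc n H ≤ 512 * Real.log n * Θ := pc_le_of_embBound hn2 hV hH hΘ0 hemb
      _ = 512 * x * Θ := by rw [hx]
      _ ≤ 512 * x * (A * (W * (P * Y))) := mul_le_mul_of_nonneg_left hΘle (by positivity)
      _ = (512 * A) * x * (W * (P * Y)) := by ring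
      _ ≤ C * x * (W * (P * Y)) := by
          apply mul_le_mul_of_nonneg_right _ hPY.le
          exact mul_le_mul_of_nonneg_right hC2 hx0.le

/-- The main case of the thresholds. -/
lemma w_main_case {n : ℕ} {V : Type} [Fintype V] {H : SimpleGraph V} {a δ W x P q θ Y A C r₁ L₀ : ℝ}
    {u D' : ℕ} (hG' : GoodDensity n q H) (hn2 : 2 ≤ n) (hV : Fintype.card V ≤ n) (hH : H ≠ ⊥)
    (hn0 : (0 : ℝ) < n) (hx : x = Real.log n) (hx1 : 1 ≤ x) (hx0 : 0 < x) (hP0 : 0 < P)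
    (hPq : P ≤ q) (hq0 : 0 < q) (hq4 : q ≤ 4 * P) (hqn : 1 / (n : ℝ) ≤ q)
    (hax : a * x = Real.log (1 / P)) (ha0 : 0 < a) (ha1 : a ≤ 1) (hδ : 0 < δ) (hδ1 : δ ≤ 1)
    (hW : 1 ≤ W) (hu : 2 ≤ u) (huR : (2 : ℝ) ≤ u) (hθ : θ = Real.log 4) (hθ0 : 0 ≤ θ)
    (hD' : D' = zD (a / 2) (δ / 2) u) (hD1 : 1 ≤ D') (hY : Y = x ^ ((3 : ℝ) / u)) (hY1 : 1 ≤ Y)
    (hA : A = (xA * Real.exp 1) ^ 2 * zC D' * 4) (hCA1 : A ≤ C) (hCA : 512 * A ≤ C)
    (hL₀ : L₀ = zC3 u * r₁) (hr₁ : r₁ = 1 / (a * δ)) (hs0 : 0 < a * δ)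
    (hsep : ∀ j m : ℕ, 1 ≤ j → j < u → 1 ≤ m →
      (j : ℝ) + δ ≤ (m : ℝ) * a ∨
        (1 ≤ (n : ℝ) ^ j * P ^ m ∧ 8 * (u : ℝ) / a * x ≤ W ^ m * ((n : ℝ) ^ j * P ^ m)))
    (hxL : L₀ ≤ x) (hqe : q ≤ Real.exp (-1)) :
    pTilde n H ≤ C * (W * (P * Y)) ∧ pc n H ≤ C * x * (W * (P * Y)) := by
  have hxs : zC3 u ≤ x * (a * δ) := by
    rw [hL₀, hr₁] at hxL
    rw [mul_one_div, div_le_iff₀ hs0] at hxL
    exact hxL
  obtain ⟨hθL, hbig, hbig3⟩ := z_sizes ha0 ha1 hδ hδ1 hx0 hxs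
  rw [← hθ] at hθL
  obtain ⟨lam, hlam⟩ : ∃ lam, lam = - Real.log q := ⟨_, rfl⟩
  have hlamlo : a * x - θ ≤ lam := by
    rw [hax, hlam, hθ, one_div, Real.log_inv]
    have h2 := Real.log_le_log hq0 hq4
    rw [Real.log_mul (by norm_num) hP0.ne'] at h2
    linarith
  have hlama : (a / 2) * x ≤ lam := by
    have h2 : 8 * θ ≤ 4 * ((u : ℝ) + 1) * θ := by
      apply mul_le_mul_of_nonneg_right _ hθ0
      linarith
    have h3 : a * δ * x ≤ a * x := by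
      have h4 : a * δ ≤ a * 1 := mul_le_mul_of_nonneg_left hδ1 ha0.le
      have h5 := mul_le_mul_of_nonneg_right h4 hx0.le
      linarith
    have h6 : (a / 2) * x = a * x / 2 := by ring
    rw [h6]
    linarith
  have hZ := w_zsep hδ hδ1 ha0 hu hn0 hx hlam hx0 hθ0 hP0 hPq hθL hlamlo hbig3 hW hsep
  have hD : 1 ≤ (n : ℝ) * q := by
    rw [div_le_iff₀ hn0] at hqn
    linarith [mul_comm (n : ℝ) q]
  have hemb := embBound_w (δ := δ / 2) (δa := a / 2) (Wt := W) (μ₀ := u) hG' hn2 hV hq0 hqe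
    (by rw [← hx]; exact hx1) hD (by positivity) (by linarith) (by positivity) (by linarith) hu
    (by rw [← hx, ← hlam]; exact hlama) hZ hW (by rw [← hx]; exact hbig)
  rw [← hD'] at hemb
  exact w_conclude hn2 hV hH hx hx1 hP0 hq0 hq4 hD1 hY hY1 hA hCA1 hCA hW hemb


/-- The thresholds under the one-sided separation. -/
theorem w_two_sided (u : ℕ) (hu : 2 ≤ u) :
    ∃ C : ℝ, 0 < C ∧ ∀ n : ℕ, 3 ≤ n → ∀ (V : Type) [Fintype V] (H : SimpleGraph V),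
      Fintype.card V ≤ n → H ≠ ⊥ →
      ∀ a : ℝ, a = Real.log (1 / max (pE n H) (1 / (n : ℝ))) / Real.log n → 0 < a →
      ∀ δ W : ℝ, 0 < δ → δ ≤ 1 → 1 ≤ W →
      (∀ j m : ℕ, 1 ≤ j → j < u → 1 ≤ m →
        (j : ℝ) + δ ≤ (m : ℝ) * a ∨
          (1 ≤ (n : ℝ) ^ j * max (pE n H) (1 / (n : ℝ)) ^ m ∧
            8 * (u : ℝ) / a * Real.log n ≤
              W ^ m * ((n : ℝ) ^ j * max (pE n H) (1 / (n : ℝ)) ^ m))) →
      pTilde n H ≤ C * (1 / (a * δ) ^ 3) *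
        (W * (max (pE n H) (1 / (n : ℝ)) * (Real.log n) ^ ((3 : ℝ) / u))) ∧
      pc n H ≤ C * (1 / (a * δ) ^ 3) * Real.log n *
        (W * (max (pE n H) (1 / (n : ℝ)) * (Real.log n) ^ ((3 : ℝ) / u))) := by
  have huR : (2 : ℝ) ≤ u := by exact_mod_cast hu
  have hu0 : (0 : ℝ) < u := by linarith
  obtain ⟨Cu, hCu, hunif⟩ := thresholds_uniform (1 / 2) (by norm_num)
  obtain ⟨θ, hθ⟩ : ∃ θ : ℝ, θ = Real.log 4 := ⟨_, rfl⟩
  have hθ0 : 0 ≤ θ := by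
    rw [hθ]
    exact Real.log_nonneg (by norm_num)
  have hxA := one_le_xA
  have hCe : 0 < Real.exp 1 := Real.exp_pos _
  obtain ⟨G, hGdef⟩ : ∃ G : ℝ, G = (xA * Real.exp 1) ^ 2 * zC2 u * 4 := ⟨_, rfl⟩
  have hG0 : 0 < G := by
    rw [hGdef]
    have h1 := zC2_pos u
    have h2 : 0 < xA := by linarith
    positivity
  have hC3 := one_le_zC3 u
  obtain ⟨C', hC'⟩ : ∃ C' : ℝ, C' = 512 * G + Cu * zC3 u + 4 * Real.exp 1 + 1 := ⟨_, rfl⟩
  have hC3' : 0 ≤ Cu * zC3 u := by positivity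
  have hC'0 : 0 < C' := by rw [hC']; linarith
  refine ⟨C', hC'0, ?_⟩
  intro n hn V _ H hV hH a ha ha0 δ W hδ hδ1 hW hsep
  have hnR : (3 : ℝ) ≤ n := by exact_mod_cast hn
  have hn0 : (0 : ℝ) < n := by linarith
  obtain ⟨x, hx⟩ : ∃ x, x = Real.log n := ⟨_, rfl⟩
  rw [← hx] at ha hsep ⊢
  have hx1 : 1 ≤ x := by
    rw [hx, Real.le_log_iff_exp_le hn0]
    have := Real.exp_one_lt_d9
    linarith
  have hx0 : 0 < x := by linarith
  have hn2 : 2 ≤ n := by omega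
  have hE0 := pE_pos hn2 hV hH
  have hu' := hunif n hn V H hV hH
  rw [← hx] at hu'
  obtain ⟨P, hP⟩ : ∃ P, P = max (pE n H) (1 / (n : ℝ)) := ⟨_, rfl⟩
  rw [← hP] at ha hu' hsep ⊢
  have hP0 : 0 < P := by rw [hP]; exact lt_max_of_lt_left hE0
  have hPE : pE n H ≤ P := by rw [hP]; exact le_max_left _ _
  have hPn : 1 / (n : ℝ) ≤ P := by rw [hP]; exact le_max_right _ _
  have hax : a * x = Real.log (1 / P) := by
    rw [ha]
    field_simp
  have ha1 : a ≤ 1 := by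
    rw [ha, div_le_one hx0, hx]
    apply Real.log_le_log (by positivity)
    rw [div_le_iff₀ hP0]
    rw [div_le_iff₀ hn0] at hPn
    linarith
  have hs0 : 0 < a * δ := by positivity
  have hs1 : a * δ ≤ 1 := by nlinarith
  obtain ⟨r₁, hr₁⟩ : ∃ r₁ : ℝ, r₁ = 1 / (a * δ) := ⟨_, rfl⟩
  have hr₁1 : 1 ≤ r₁ := by
    rw [hr₁, le_div_iff₀ hs0]
    linarith
  obtain ⟨r, hr⟩ : ∃ r : ℝ, r = 1 / (a * δ) ^ 3 := ⟨_, rfl⟩
  rw [← hr]
  have hrr₁ : r = r₁ ^ 3 := by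
    rw [hr, hr₁]
    field_simp
  have hr₁r : r₁ ≤ r := by
    rw [hrr₁]
    nlinarith [mul_nonneg (sub_nonneg.2 hr₁1) (sub_nonneg.2 hr₁1), sq_nonneg r₁]
  have hr1 : 1 ≤ r := by linarith
  obtain ⟨C, hC⟩ : ∃ C : ℝ, C = C' * r := ⟨_, rfl⟩
  rw [← hC]
  have hC0 : 0 < C := by rw [hC]; positivity
  obtain ⟨L₀, hL₀⟩ : ∃ L₀ : ℝ, L₀ = zC3 u * r₁ := ⟨_, rfl⟩
  have hL₀1 : 1 ≤ L₀ := by
    rw [hL₀]
    nlinarith
  have hL₀C : Cu * L₀ + 4 * Real.exp 1 ≤ C := by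
    have h1 : L₀ ≤ zC3 u * r := by
      rw [hL₀]
      exact mul_le_mul_of_nonneg_left hr₁r (by linarith)
    have h2 : Cu * L₀ ≤ Cu * (zC3 u * r) := mul_le_mul_of_nonneg_left h1 hCu.le
    have h3 : 4 * Real.exp 1 * 1 ≤ 4 * Real.exp 1 * r := mul_le_mul_of_nonneg_left hr1 (by positivity)
    have h4 : 0 ≤ 512 * G * r := by positivity
    have h5 : C = 512 * G * r + Cu * zC3 u * r + 4 * Real.exp 1 * r + r := by
      rw [hC, hC']
      ring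
    rw [h5]
    have h6 : Cu * (zC3 u * r) = Cu * zC3 u * r := by ring
    linarith
  obtain ⟨D', hD'⟩ : ∃ D' : ℕ, D' = zD (a / 2) (δ / 2) u := ⟨_, rfl⟩
  have hD1 : 1 ≤ D' := by
    rw [hD']
    exact one_le_zD (by positivity) (by positivity)
  obtain ⟨A, hA⟩ : ∃ A : ℝ, A = (xA * Real.exp 1) ^ 2 * zC D' * 4 := ⟨_, rfl⟩
  have hAG : A ≤ G * r := by
    have h1 : zC D' ≤ zC2 u * r := by
      rw [hD', hr]
      exact zC_le ha0 ha1 hδ hδ1 u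
    rw [hA, hGdef]
    have h3 : 0 ≤ (xA * Real.exp 1) ^ 2 := by positivity
    calc (xA * Real.exp 1) ^ 2 * zC D' * 4 ≤ (xA * Real.exp 1) ^ 2 * (zC2 u * r) * 4 := by
          apply mul_le_mul_of_nonneg_right _ (by norm_num)
          exact mul_le_mul_of_nonneg_left h1 h3
      _ = _ := by ring
  have hrest : 0 ≤ Cu * zC3 u * r + 4 * Real.exp 1 * r + r := by positivity
  have hCA : 512 * A ≤ C := by
    have h5 : C = 512 * (G * r) + (Cu * zC3 u * r + 4 * Real.exp 1 * r + r) := by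
      rw [hC, hC']
      ring
    rw [h5]
    linarith
  have hA0 : 0 < A := by
    rw [hA]
    have h1 := one_le_zC hD1
    have h2 : 0 < zC D' := by linarith
    have h3 : 0 < xA := by linarith
    positivity
  have hCA1 : A ≤ C := by linarith
  obtain ⟨ι⟩ : Nonempty (V ↪ Fin n) :=
    Function.Embedding.nonempty_of_card_le (by simpa using hV)
  have hlt : pE n H < 2 * pE n H := by linarith
  obtain ⟨p, ⟨h0, h1, hp⟩, hp2⟩ := exists_lt_of_csInf_lt (pE_set_nonempty (H := H) ι) hlt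
  have hpE : pE n H ≤ p := csInf_le ⟨0, fun _ hy => hy.1⟩ ⟨h0, h1, hp⟩
  have hp0 : 0 < p := by linarith
  have hG₀ : GoodDensity n (2 * p) H := good_of_subgraphs h0 h1 hp
  obtain ⟨q, hq⟩ : ∃ q, q = max (2 * p) (1 / (n : ℝ)) := ⟨_, rfl⟩
  have hq0 : 0 < q := by rw [hq]; exact lt_max_of_lt_right (by positivity)
  have hq4 : q ≤ 4 * P := by
    rw [hq]
    apply max_le
    · linarith
    · linarith
  have hqn : 1 / (n : ℝ) ≤ q := by rw [hq]; exact le_max_right _ _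
  have hPq : P ≤ q := by
    rw [hP]
    apply max_le
    · have : 2 * p ≤ q := by rw [hq]; exact le_max_left _ _
      linarith
    · exact hqn
  have hG' : GoodDensity n q H := good_mono (by positivity) (by rw [hq]; exact le_max_left _ _) hG₀
  obtain ⟨Y, hY⟩ : ∃ Y, Y = x ^ ((3 : ℝ) / u) := ⟨_, rfl⟩
  have hY1 : 1 ≤ Y := by
    rw [hY]
    exact Real.one_le_rpow hx1 (by positivity)
  rw [← hY]
  by_cases hcase : x < L₀ ∨ Real.exp (-1) < q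
  · have hsm := y_small_case hV hx1 hP0 hY1 hC0 hCu hL₀1 hL₀C hq4 hu' hcase
    have hPY : 0 < P * Y := by positivity
    have hW0 : P * Y ≤ W * (P * Y) := le_mul_of_one_le_left hPY.le hW
    constructor
    · exact hsm.1.trans (mul_le_mul_of_nonneg_left hW0 hC0.le)
    · exact hsm.2.trans (mul_le_mul_of_nonneg_left hW0 (by positivity))
  · push Not at hcase
    obtain ⟨hxL, hqe⟩ := hcase
    exact w_main_case hG' hn2 hV hH hn0 hx hx1 hx0 hP0 hPq hq0 hq4 hqn hax ha0 ha1 hδ hδ1 hW hu huR hθ hθ0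
      hD' hD1 hY hY1 hA hCA1 hCA hL₀ hr₁ hs0 hsep hxL hqe

end Vale.Agent.Lib.P064Int
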