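import Vale.Agent.Lib.P064Int.Fiber
import Vale.Agent.Lib.P064X.XMain

/-!
The induction over vertex sets and the bound on embeddings, under separation.
-/

open Finset

namespace Vale.Agent.Lib.P064

open scoped Classical

variable {V α : Type} [Fintype V] [Fintype α] {H : SimpleGraph V} {F : SimpleGraph α} {n : ℕ}
  {q : ℝ}

/-- The main induction: as `x_main`, with `yK`, `w_fiber`. -/
theorem w_main {δ δa Wt : ℝ} {μ₀ : ℕ} (hG : GoodDensity n q H) (hn : 2 ≤ n) (hV : Fintype.card V ≤ n)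
    (hq0 : 0 < q) (hqe : q ≤ Real.exp (-1)) (hL : 1 ≤ Real.log n) (hD : 1 ≤ (n : ℝ) * q)
    (hδ0 : 0 < δ) (hδ1 : δ ≤ 1) (hδa0 : 0 < δa) (hδa1 : δa ≤ 1) (hμ₀ : 2 ≤ μ₀)
    (hlam : δa * Real.log n ≤ - Real.log q) (hsep : WSep n q δ (4 * (μ₀ : ℝ) / δa) Wt μ₀) (hWt : 1 ≤ Wt)
    (hbig : 4 * (μ₀ : ℝ) ≤ δa * δ * Real.log n) (k : ℕ) :
    ∀ (W : Finset α) (S : Finset (α → V)), W.card ≤ k →
      (∀ φ ∈ S, Function.Injective φ) →
      (∀ φ ∈ S, ∀ u v, F.Adj u v → H.Adj (φ u) (φ v)) →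
      ((S.image (proj W)).card : ℝ) ≤
        xA ^ W.card * (Wt * zK (zD δa δ μ₀) μ₀ n) ^ (eIn F W).card * ((n : ℝ) ^ W.card * q ^ (eIn F W).card) := by
  have hn0 : (0 : ℝ) < n := by
    have : 0 < n := by omega
    exact_mod_cast this
  have hn' : 1 ≤ n := by omega
  have hA0 : (0 : ℝ) ≤ xA := by
    have := one_le_xA
    linarith
  have hK0 : (0 : ℝ) ≤ (Wt * zK (zD δa δ μ₀) μ₀ n) := by
    have := one_le_zK (D' := zD δa δ μ₀) (μ₀ := μ₀) (n := n) (one_le_zD hδa0 hδ0) hL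
    exact mul_nonneg (by linarith) (by linarith)
  induction k with
  | zero =>
    intro W S hW _ _
    have hW0 : W = ∅ := Finset.card_eq_zero.1 (Nat.le_zero.1 hW)
    subst hW0
    have h1 : (S.image (proj (∅ : Finset α))).card ≤ 1 := by
      refine Finset.card_le_one.2 ?_
      intro a ha b hb
      obtain ⟨φ, _, rfl⟩ := Finset.mem_image.1 ha
      obtain ⟨φ', _, rfl⟩ := Finset.mem_image.1 hb
      funext x
      simp [proj]
    rw [eIn_empty]
    simp only [Finset.card_empty, pow_zero, mul_one]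
    exact_mod_cast h1
  | succ k ih =>
    intro W S hW hinj hhom
    by_cases hne : W.Nonempty
    swap
    · rw [Finset.not_nonempty_iff_eq_empty] at hne
      subst hne
      exact ih ∅ S (by simp) hinj hhom
    by_cases hS : S.Nonempty
    swap
    · rw [Finset.not_nonempty_iff_eq_empty] at hS
      subst hS
      simp only [Finset.image_empty, Finset.card_empty, Nat.cast_zero]
      positivity
    obtain ⟨φ₁, hφ₁⟩ := hS
    have hτ := x_not_low_of_member (W := W) hG hn' hq0 hqe (hinj φ₁ hφ₁) (hhom φ₁ hφ₁)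
    obtain ⟨I, hIW, hIne, hIτ, hImin⟩ := x_exists_min_not_low (n := n) (q := q) (F := F) hne hτ
    set E := W \ I with hE
    have hU : E ∪ I = W := Finset.sdiff_union_of_subset hIW
    have hdisj : Disjoint I E := Finset.disjoint_sdiff
    have hcard : W.card = E.card + I.card := by
      rw [← hU]
      exact Finset.card_union_of_disjoint hdisj.symm
    have hIc : 0 < I.card := Finset.card_pos.2 hIne
    set m := (newE F E I).card with hm
    have hcardE : (eIn F W).card = (eIn F E).card + m := by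
      rw [← hU]
      exact eIn_union_card
    set B : ℝ := xA ^ I.card * (Wt * zK (zD δa δ μ₀) μ₀ n) ^ m * ((n : ℝ) ^ I.card * q ^ m) with hB
    have hB0 : 0 ≤ B := by positivity
    have hstep := card_image_proj_step_real S (D := E) (D' := W) (B := B) Finset.sdiff_subset hB0 (by
      intro φ₂ _
      have hsub : S.filter (fun φ => proj E φ = proj E φ₂) ⊆ S := Finset.filter_subset _ _
      have := w_fiber (F := F) hG hn hV hq0 hqe hL hD hδ0 hδ1 hδa0 hδa1 hμ₀ hlam hsep hWt hbig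
        (E := E) (I := I) hdisj hIne
        (by rw [hU]; exact hIτ) (by rw [hU]; exact hImin)
        (S := S.filter (fun φ => proj E φ = proj E φ₂)) (φ₀ := φ₂)
        (fun φ hφ => hinj φ (hsub hφ)) (fun φ hφ => hhom φ (hsub hφ))
        (fun φ hφ x hx => proj_eq_apply hx (Finset.mem_filter.1 hφ).2)
      rw [hU] at this
      refine this.trans (le_of_eq ?_)
      rw [hB, mul_pow]
      ring)
    have hih := ih E S (by omega) hinj hhom
    calc ((S.image (proj W)).card : ℝ) ≤ B * (S.image (proj E)).card := hstep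
      _ ≤ B * (xA ^ E.card * (Wt * zK (zD δa δ μ₀) μ₀ n) ^ (eIn F E).card *
            ((n : ℝ) ^ E.card * q ^ (eIn F E).card)) := mul_le_mul_of_nonneg_left hih hB0
      _ = _ := by
          rw [hcard, hcardE, hB]
          ring

/-- The embedding bound: as `embBound_x`. -/
theorem embBound_w {δ δa Wt : ℝ} {μ₀ : ℕ} (hG : GoodDensity n q H) (hn : 2 ≤ n)
    (hV : Fintype.card V ≤ n)
    (hq0 : 0 < q) (hqe : q ≤ Real.exp (-1)) (hL : 1 ≤ Real.log n) (hD : 1 ≤ (n : ℝ) * q)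
    (hδ0 : 0 < δ) (hδ1 : δ ≤ 1) (hδa0 : 0 < δa) (hδa1 : δa ≤ 1) (hμ₀ : 2 ≤ μ₀)
    (hlam : δa * Real.log n ≤ - Real.log q) (hsep : WSep n q δ (4 * (μ₀ : ℝ) / δa) Wt μ₀) (hWt : 1 ≤ Wt)
    (hbig : 4 * (μ₀ : ℝ) ≤ δa * δ * Real.log n) :
    EmbBound n H ((xA * Real.exp 1) ^ 2 * (Wt * zK (zD δa δ μ₀) μ₀ n) * q) := by
  intro β _ F hiso hvn
  have h := w_main (α := β) (F := F) hG hn hV hq0 hqe hL hD hδ0 hδ1 hδa0 hδa1 hμ₀ hlam hsep hWt hbig
    (Fintype.card β) univ (emb F H)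
    (by simp) (fun φ hφ => (mem_emb.1 hφ).1) (fun φ hφ => (mem_emb.1 hφ).2)
  have hcard : ((emb F H).image (proj (univ : Finset β))).card = (emb F H).card :=
    Finset.card_image_of_injective _ proj_univ_injective
  rw [hcard, Finset.card_univ] at h
  refine h.trans ?_
  set e := (eIn F univ).card with he
  set v := Fintype.card β with hv
  have hve : v ≤ 2 * e := (vertices_le_darts hiso).trans darts_card_le
  have hnd := pow_le_exp_descFactorial hvn
  set d : ℝ := (n.descFactorial v : ℝ) with hd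
  have hd0 : 0 ≤ d := Nat.cast_nonneg _
  set E := Real.exp 1 with hE
  have hE1 : 1 ≤ E := Real.one_le_exp (by norm_num)
  have hA1 : 1 ≤ xA := one_le_xA
  have hL0 : 0 ≤ Real.log n := by linarith
  have hnq0 : 0 < (n : ℝ) * q := by linarith
  have hK0 : 0 ≤ (Wt * zK (zD δa δ μ₀) μ₀ n) := by
    have := one_le_zK (D' := zD δa δ μ₀) (μ₀ := μ₀) (n := n) (one_le_zD hδa0 hδ0) hL
    exact mul_nonneg (by linarith) (by linarith)
  have hb : (1 : ℝ) ≤ xA * E := by nlinarith
  have hpow : (xA * E) ^ v ≤ (xA * E) ^ (2 * e) := pow_le_pow_right₀ hb hve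
  have hA0 : 0 ≤ xA := by linarith
  calc xA ^ v * (Wt * zK (zD δa δ μ₀) μ₀ n) ^ e * ((n : ℝ) ^ v * q ^ e)
      ≤ xA ^ v * (Wt * zK (zD δa δ μ₀) μ₀ n) ^ e * ((E ^ v * d) * q ^ e) := by
        gcongr
    _ = (xA * E) ^ v * ((Wt * zK (zD δa δ μ₀) μ₀ n) ^ e * q ^ e * d) := by
        rw [mul_pow]
        ring
    _ ≤ (xA * E) ^ (2 * e) * ((Wt * zK (zD δa δ μ₀) μ₀ n) ^ e * q ^ e * d) := by
        gcongr
    _ = ((xA * E) ^ 2 * (Wt * zK (zD δa δ μ₀) μ₀ n) * q) ^ e * d := by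
        rw [pow_mul (xA * E) 2 e, mul_pow, mul_pow]
        ring

end Vale.Agent.Lib.P064
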