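import Vale.Agent.Lib.P064Int.Final
import Vale.Agent.Lib.P064Two.Near

/-!
Just below `a = 1 / d`: interpolation in the room `n P^d`.
-/

open Finset

namespace Vale.Agent.Lib.P064Int

open Vale.Agent.Lib.P064 Vale.Agent.Lib.P064E Vale.Agent.Lib.P064U Vale.Agent.Lib.P064T
  Vale.Agent.Lib.P064Sep Vale.Agent.Lib.P064Two
open scoped Classical

/-- The separation below `1 / d`, with the weight. -/
lemma sep_below {n d u : ℕ} {a κ i M c x P W X : ℝ} (h : ZNear n d u a κ i M c x P)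
    (hX : X = (n : ℝ) * P ^ d) (hX1 : 1 ≤ X) (hW1 : 1 ≤ W) (hWd : c * x ≤ W ^ d * X)
    (ha0 : 0 < a) (ha1 : a ≤ 1) (hu : 2 ≤ u) (hx1 : 1 ≤ x) (j m : ℕ) (hj1 : 1 ≤ j) (hj : j < u) :
    (j : ℝ) + i / 2 ≤ (m : ℝ) * a ∨
      (1 ≤ (n : ℝ) ^ j * P ^ m ∧ 8 * (u : ℝ) / a * x ≤ W ^ m * ((n : ℝ) ^ j * P ^ m)) := by
  have huR : (2 : ℝ) ≤ u := by exact_mod_cast hu
  rcases lt_trichotomy m (j * d) with hlt | heq | hgt
  · right
    have hf := h.few hj hlt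
    have h1 : 1 ≤ 8 * (u : ℝ) / a * x := by
      have h2 : 1 ≤ 8 * (u : ℝ) / a := by
        rw [le_div_iff₀ ha0]
        linarith
      nlinarith
    have hρ1 : 1 ≤ (n : ℝ) ^ j * P ^ m := h1.trans hf
    refine ⟨hρ1, hf.trans ?_⟩
    exact le_mul_of_one_le_left (by linarith) (one_le_pow₀ hW1)
  · right
    subst heq
    have h3 : (n : ℝ) ^ j * P ^ (j * d) = X ^ j := by
      rw [hX, mul_pow, ← pow_mul, mul_comm d j]
    rw [h3]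
    refine ⟨one_le_pow₀ hX1, ?_⟩
    have h4 : W ^ (j * d) * X ^ j = (W ^ d * X) ^ j := by
      rw [mul_pow, ← pow_mul, mul_comm d j]
    rw [h4]
    have h5 : 1 ≤ W ^ d * X := by
      have h6 : 1 ≤ W ^ d := one_le_pow₀ hW1
      nlinarith
    have h7 : (W ^ d * X) ^ 1 ≤ (W ^ d * X) ^ j := pow_le_pow_right₀ h5 hj1
    rw [pow_one] at h7
    exact h.hcAx.trans (hWd.trans h7)
  · exact Or.inl (h.many hj hgt)

/-- The main case just below `1 / d`. -/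
lemma near_main_case {n d u : ℕ} {V : Type} [Fintype V] {H : SimpleGraph V}
    {Cz C a κ i M c x P Y X Z R : ℝ} (hZN : ZNear n d u a κ i M c x P)
    (hX : X = (n : ℝ) * P ^ d) (hX1 : 1 ≤ X) (hX0 : 0 < X) (ha0 : 0 < a) (ha1 : a ≤ 1) (hu : 2 ≤ u)
    (hx1 : 1 ≤ x) (hx0 : 0 < x) (hd0 : (0 : ℝ) < d) (hdne : d ≠ 0) (hc0 : 0 < c) (hc1 : 1 ≤ c)
    (hZ : Z = 1 + x / X) (hZ1 : 1 ≤ Z) (hR : R = Z ^ ((d : ℝ)⁻¹)) (hR0 : 0 < R)
    (hdinv0 : 0 ≤ (d : ℝ)⁻¹) (hdinv1 : (d : ℝ)⁻¹ ≤ 1) (hAinv : 1 / a ≤ 2 * d)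
    (hidef : i = 1 / (d : ℝ)) (hi0 : 0 < i) (h_i1 : i ≤ 1 / 2) (hCz : 0 < Cz)
    (hCC6 : Cz * (64 * (d : ℝ) ^ 6) * c ≤ C) (hPY : 0 < P * Y)
    (hzn : ∀ δ W : ℝ, 0 < δ → δ ≤ 1 → 1 ≤ W →
      (∀ j m : ℕ, 1 ≤ j → j < u → 1 ≤ m →
        (j : ℝ) + δ ≤ (m : ℝ) * a ∨
          (1 ≤ (n : ℝ) ^ j * P ^ m ∧ 8 * (u : ℝ) / a * x ≤ W ^ m * ((n : ℝ) ^ j * P ^ m))) →
      pTilde n H ≤ Cz * (1 / (a * δ) ^ 3) * (W * (P * Y)) ∧
      pc n H ≤ Cz * (1 / (a * δ) ^ 3) * x * (W * (P * Y))) :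
    pTilde n H ≤ C * (P * Y * R) ∧ pc n H ≤ C * x * (P * Y * R) := by
  -- the weight
  obtain ⟨W, hW⟩ : ∃ W, W = (c * Z) ^ ((d : ℝ)⁻¹) := ⟨_, rfl⟩
  have hcZ : 1 ≤ c * Z := by
    have h0 : (1 : ℝ) * 1 ≤ c * Z := mul_le_mul hc1 hZ1 (by norm_num) hc0.le
    linarith
  have hW1 : 1 ≤ W := by
    rw [hW]
    exact Real.one_le_rpow hcZ hdinv0
  have hWpow : W ^ d = c * Z := by
    rw [hW]
    exact Real.rpow_inv_natCast_pow (by linarith) hdne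
  have hWd : c * x ≤ W ^ d * X := by
    rw [hWpow, hZ]
    have h1 : c * (1 + x / X) * X = c * (X + x) := by
      field_simp
    rw [h1]
    nlinarith
  have hWR : W ≤ c * R := by
    rw [hW, Real.mul_rpow hc0.le (by linarith), hR]
    apply mul_le_mul_of_nonneg_right _ (by positivity)
    calc c ^ ((d : ℝ)⁻¹) ≤ c ^ (1 : ℝ) := Real.rpow_le_rpow_of_exponent_le hc1 hdinv1
      _ = c := Real.rpow_one c
  obtain ⟨h1, h2⟩ := hzn (i / 2) W (by positivity) (by linarith [h_i1]) hW1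
    (fun j m hj1 hj _ => sep_below hZN hX hX1 hW1 hWd ha0 ha1 hu hx1 j m hj1 hj)
  have hfin := z_finish_below (T1 := pTilde n H) (T2 := pc n H) (PY := W * (P * Y))
    (C := Cz * (64 * (d : ℝ) ^ 6)) hCz (by positivity) hx0 ha0 hAinv hidef hd0 le_rfl h1 h2
  have hWPY : W * (P * Y) ≤ c * (P * Y * R) := by
    calc W * (P * Y) ≤ (c * R) * (P * Y) := mul_le_mul_of_nonneg_right hWR hPY.le
      _ = _ := by ring
  have hPYRnn : 0 ≤ P * Y * R := by positivity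
  have hC2 : 0 < Cz * (64 * (d : ℝ) ^ 6) := by positivity
  constructor
  · calc pTilde n H ≤ Cz * (64 * (d : ℝ) ^ 6) * (W * (P * Y)) := hfin.1
      _ ≤ Cz * (64 * (d : ℝ) ^ 6) * (c * (P * Y * R)) :=
          mul_le_mul_of_nonneg_left hWPY hC2.le
      _ = Cz * (64 * (d : ℝ) ^ 6) * c * (P * Y * R) := by ring
      _ ≤ C * (P * Y * R) := mul_le_mul_of_nonneg_right hCC6 hPYRnn
  · calc pc n H ≤ Cz * (64 * (d : ℝ) ^ 6) * x * (W * (P * Y)) := hfin.2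
      _ ≤ Cz * (64 * (d : ℝ) ^ 6) * x * (c * (P * Y * R)) :=
          mul_le_mul_of_nonneg_left hWPY (by positivity)
      _ = (Cz * (64 * (d : ℝ) ^ 6) * c) * x * (P * Y * R) := by ring
      _ ≤ C * x * (P * Y * R) := by
          apply mul_le_mul_of_nonneg_right _ hPYRnn
          exact mul_le_mul_of_nonneg_right hCC6 hx0.le


/-- The core: just below `1 / d`, exponent `3 / u`. -/
theorem near_below_core (d u : ℕ) (hd : 2 ≤ d) (hu : 2 ≤ u) :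
    ∃ κ C : ℝ, 0 < κ ∧ 0 < C ∧ ∀ n : ℕ, 3 ≤ n →
      ∀ (V : Type) [Fintype V] (H : SimpleGraph V), Fintype.card V ≤ n → H ≠ ⊥ →
      ∀ a : ℝ, a = Real.log (1 / max (pE n H) (1 / (n : ℝ))) / Real.log n →
      |a - 1 / (d : ℝ)| ≤ κ →
      1 ≤ (n : ℝ) * max (pE n H) (1 / (n : ℝ)) ^ d →
      pTilde n H ≤ C * (max (pE n H) (1 / (n : ℝ)) * (Real.log n) ^ ((3 : ℝ) / u) *
        (1 + Real.log n / ((n : ℝ) * max (pE n H) (1 / (n : ℝ)) ^ d)) ^ ((d : ℝ)⁻¹)) ∧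
      pc n H ≤ C * Real.log n * (max (pE n H) (1 / (n : ℝ)) * (Real.log n) ^ ((3 : ℝ) / u) *
        (1 + Real.log n / ((n : ℝ) * max (pE n H) (1 / (n : ℝ)) ^ d)) ^ ((d : ℝ)⁻¹)) := by
  have hdR : (2 : ℝ) ≤ d := by exact_mod_cast hd
  have huR : (2 : ℝ) ≤ u := by exact_mod_cast hu
  have hd0 : (0 : ℝ) < d := by linarith
  have hdne : d ≠ 0 := by omega
  have hu0 : (0 : ℝ) < u := by linarith
  obtain ⟨Cz, hCz, hz⟩ := w_two_sided u hu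
  obtain ⟨Cu, hCu, hunif⟩ := thresholds_uniform (1 / 2) (by norm_num)
  obtain ⟨i, hidef⟩ : ∃ i : ℝ, i = 1 / (d : ℝ) := ⟨_, rfl⟩
  have hi0 : 0 < i := by rw [hidef]; positivity
  have hid : i * d = 1 := by
    rw [hidef]
    field_simp
  have hi1 : i ≤ 1 / 2 := by
    rw [hidef]
    apply one_div_le_one_div_of_le (by norm_num) hdR
  obtain ⟨M, hMdef⟩ : ∃ M : ℝ, M = 2 * (d : ℝ) * ((u : ℝ) + 1) := ⟨_, rfl⟩
  have hM0 : 0 < M := by rw [hMdef]; positivity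
  have hM1 : 1 ≤ M := by
    rw [hMdef]
    nlinarith
  obtain ⟨κ, hκdef⟩ : ∃ κ : ℝ, κ = i / 2 / M := ⟨_, rfl⟩
  have hκ0 : 0 < κ := by rw [hκdef]; positivity
  have hκM : κ * M = i / 2 := by
    rw [hκdef]
    field_simp
  have hκi : κ ≤ i / 2 := by
    rw [hκdef]
    apply div_le_self (by positivity) hM1
  obtain ⟨c, hcdef⟩ : ∃ c : ℝ, c = 16 * (u : ℝ) * (d : ℝ) := ⟨_, rfl⟩
  have hc0 : 0 < c := by rw [hcdef]; positivity
  have hc1 : 1 ≤ c := by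
    rw [hcdef]
    nlinarith
  obtain ⟨L₁, hL₁⟩ : ∃ L₁ : ℝ, L₁ = 8 * c * (d : ℝ) ^ 2 := ⟨_, rfl⟩
  have hL₁1 : 1 ≤ L₁ := by
    rw [hL₁]
    nlinarith
  have hCe : 0 < Real.exp 1 := Real.exp_pos _
  have hdpow : 1 ≤ (d : ℝ) ^ 6 := one_le_pow₀ (by linarith)
  obtain ⟨C, hC⟩ : ∃ C : ℝ, C = Cz * (64 * (d : ℝ) ^ 6) * c + Cu * L₁ + 4 * Real.exp 1 + 1 := ⟨_, rfl⟩
  have hCzd : 0 < Cz * (64 * (d : ℝ) ^ 6) * c := by positivity
  have hCL : 0 < Cu * L₁ := by positivity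
  have hC0 : 0 < C := by rw [hC]; linarith
  have hCC6 : Cz * (64 * (d : ℝ) ^ 6) * c ≤ C := by rw [hC]; linarith
  have hL₀C : Cu * L₁ + 4 * Real.exp 1 ≤ C := by
    rw [hC]
    linarith
  refine ⟨κ, C, hκ0, hC0, ?_⟩
  intro n hn V _ H hV hH a ha hnear hX1
  have hnR : (3 : ℝ) ≤ n := by exact_mod_cast hn
  have hn0 : (0 : ℝ) < n := by linarith
  obtain ⟨x, hx⟩ : ∃ x, x = Real.log n := ⟨_, rfl⟩
  have hzn := hz n hn V H hV hH a ha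
  have hu' := hunif n hn V H hV hH
  rw [← hx] at ha hzn hu' ⊢
  have hx1 : 1 ≤ x := by
    rw [hx, Real.le_log_iff_exp_le hn0]
    have := Real.exp_one_lt_d9
    linarith
  have hx0 : 0 < x := by linarith
  have hn2 : 2 ≤ n := by omega
  have hE0 := pE_pos hn2 hV hH
  obtain ⟨P, hP⟩ : ∃ P, P = max (pE n H) (1 / (n : ℝ)) := ⟨_, rfl⟩
  rw [← hP] at ha hzn hu' hX1 ⊢
  have hP0 : 0 < P := by rw [hP]; exact lt_max_of_lt_left hE0
  have hPn : 1 / (n : ℝ) ≤ P := by rw [hP]; exact le_max_right _ _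
  have hax : a * x = Real.log (1 / P) := by
    rw [ha]
    field_simp
  have ha1 : a ≤ 1 := by
    rw [ha, div_le_one hx0, hx]
    apply Real.log_le_log (by positivity)
    rw [div_le_iff₀ hP0]
    rw [div_le_iff₀ hn0] at hPn
    linarith
  rw [← hidef] at hnear
  obtain ⟨hna1, hna2⟩ := abs_le.1 hnear
  have ha_lo : i - κ ≤ a := by linarith
  have ha_hi : a ≤ i + κ := by linarith
  have ha_half : i / 2 ≤ a := by linarith
  have ha0 : 0 < a := by linarith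
  obtain ⟨Y, hY⟩ : ∃ Y, Y = x ^ ((3 : ℝ) / u) := ⟨_, rfl⟩
  have hY1 : 1 ≤ Y := by
    rw [hY]
    exact Real.one_le_rpow hx1 (by positivity)
  rw [← hY] at hzn ⊢
  have hY0 : 0 < Y := by linarith
  have hPY : 0 < P * Y := by positivity
  obtain ⟨X, hX⟩ : ∃ X, X = (n : ℝ) * P ^ d := ⟨_, rfl⟩
  rw [← hX] at hX1 ⊢
  have hX0 : 0 < X := by linarith
  obtain ⟨Z, hZ⟩ : ∃ Z, Z = 1 + x / X := ⟨_, rfl⟩
  rw [← hZ]
  have hZ1 : 1 ≤ Z := by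
    rw [hZ]
    have : 0 ≤ x / X := by positivity
    linarith
  have hdinv0 : 0 ≤ (d : ℝ)⁻¹ := by positivity
  have hdinv1 : (d : ℝ)⁻¹ ≤ 1 := by
    rw [inv_le_one₀ hd0]
    linarith
  obtain ⟨R, hR⟩ : ∃ R, R = Z ^ ((d : ℝ)⁻¹) := ⟨_, rfl⟩
  rw [← hR]
  have hR1 : 1 ≤ R := by
    rw [hR]
    exact Real.one_le_rpow hZ1 hdinv0
  have hR0 : 0 < R := by linarith
  have hPYR : P * Y ≤ P * Y * R := le_mul_of_one_le_right hPY.le hR1
  -- the size of the hypothesis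
  have hcA : 8 * (u : ℝ) / a ≤ c := by
    rw [div_le_iff₀ ha0, hcdef]
    have h1 : 16 * (u : ℝ) * (d : ℝ) * (i / 2) ≤ 16 * (u : ℝ) * (d : ℝ) * a :=
      mul_le_mul_of_nonneg_left ha_half (by positivity)
    have h2 : 16 * (u : ℝ) * (d : ℝ) * (i / 2) = 8 * (u : ℝ) * (i * d) := by ring
    rw [h2, hid] at h1
    linarith
  have hcAx : 8 * (u : ℝ) / a * x ≤ c * x := mul_le_mul_of_nonneg_right hcA hx0.le
  have hAinv : 1 / a ≤ 2 * d := by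
    rw [div_le_iff₀ ha0]
    have h1 : 2 * (d : ℝ) * (i / 2) ≤ 2 * (d : ℝ) * a :=
      mul_le_mul_of_nonneg_left ha_half (by positivity)
    have h2 : 2 * (d : ℝ) * (i / 2) = i * d := by ring
    rw [h2, hid] at h1
    linarith
  by_cases hxL : x < L₁
  · have hsm := y_small_case (q := P) hV hx1 hP0 hY1 hC0 hCu hL₁1 hL₀C (by linarith) hu' (Or.inl hxL)
    exact ⟨hsm.1.trans (mul_le_mul_of_nonneg_left hPYR hC0.le),
      hsm.2.trans (mul_le_mul_of_nonneg_left hPYR (by positivity))⟩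
  · push Not at hxL
    have hbig : c * x ≤ Real.exp (x * (1 / (2 * (d : ℝ)))) :=
      z_exp_big hd0 hc0.le hx0 (by rw [← hL₁]; exact hxL)
    have hZN : ZNear n d u a κ i M c x P :=
      { hd0 := hd0, hid := hid, hidef := hidef, hκM := hκM, hMdef := hMdef, hκ0 := hκ0.le,
        hκi := hκi, hi0 := hi0, hi1 := hi1, ha_lo := ha_lo, ha_hi := ha_hi, hn0 := hn0, hP0 := hP0,
        hx := hx, hax := hax, hx0 := hx0, hcAx := hcAx, hbig := hbig }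
    exact near_main_case hZN hX hX1 hX0 ha0 ha1 hu hx1 hx0 hd0 hdne hc0 hc1 hZ hZ1 hR hR0 hdinv0 hdinv1
      hAinv hidef hi0 hi1 hCz hCC6 hPY (hzn ha0)

/-- Just below `1 / d`, any positive exponent. -/
theorem near_below (d : ℕ) (hd : 2 ≤ d) {ε : ℝ} (hε : 0 < ε) :
    ∃ κ C : ℝ, 0 < κ ∧ 0 < C ∧ ∀ n : ℕ, 3 ≤ n →
      ∀ (V : Type) [Fintype V] (H : SimpleGraph V), Fintype.card V ≤ n → H ≠ ⊥ →
      ∀ a : ℝ, a = Real.log (1 / max (pE n H) (1 / (n : ℝ))) / Real.log n →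
      |a - 1 / (d : ℝ)| ≤ κ →
      1 ≤ (n : ℝ) * max (pE n H) (1 / (n : ℝ)) ^ d →
      pTilde n H ≤ C * (max (pE n H) (1 / (n : ℝ)) * (Real.log n) ^ ε *
        (1 + Real.log n / ((n : ℝ) * max (pE n H) (1 / (n : ℝ)) ^ d)) ^ ((d : ℝ)⁻¹)) ∧
      pc n H ≤ C * Real.log n * (max (pE n H) (1 / (n : ℝ)) * (Real.log n) ^ ε *
        (1 + Real.log n / ((n : ℝ) * max (pE n H) (1 / (n : ℝ)) ^ d)) ^ ((d : ℝ)⁻¹)) := by
  obtain ⟨u, hu⟩ : ∃ u : ℕ, u = max 2 ⌈3 / ε⌉₊ := ⟨_, rfl⟩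
  have hu2 : 2 ≤ u := by
    rw [hu]
    exact le_max_left _ _
  have hu3 : 3 / ε ≤ u := by
    have h1 : ⌈3 / ε⌉₊ ≤ u := by
      rw [hu]
      exact le_max_right _ _
    have h2 : ((⌈3 / ε⌉₊ : ℕ) : ℝ) ≤ u := by exact_mod_cast h1
    exact (Nat.le_ceil _).trans h2
  have hu0 : (0 : ℝ) < u := by
    have : (2 : ℝ) ≤ u := by exact_mod_cast hu2
    linarith
  have hexp : (3 : ℝ) / u ≤ ε := by
    rw [div_le_iff₀ hu0]
    rw [div_le_iff₀ hε] at hu3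
    linarith
  obtain ⟨κ, C, hκ, hC, h⟩ := near_below_core d u hd hu2
  refine ⟨κ, C, hκ, hC, ?_⟩
  intro n hn V _ H hV hH a ha hnear hX1
  obtain ⟨h3, h4⟩ := h n hn V H hV hH a ha hnear hX1
  have hnR : (3 : ℝ) ≤ n := by exact_mod_cast hn
  have hL : 1 ≤ Real.log n := by
    rw [Real.le_log_iff_exp_le (by linarith)]
    have := Real.exp_one_lt_d9
    linarith
  have hL0 : 0 ≤ Real.log n := by linarith
  have hP0 : 0 ≤ max (pE n H) (1 / (n : ℝ)) := le_max_of_le_right (by positivity)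
  have hX0 : 0 ≤ (n : ℝ) * max (pE n H) (1 / (n : ℝ)) ^ d := by positivity
  have hR0 : 0 ≤ (1 + Real.log n / ((n : ℝ) * max (pE n H) (1 / (n : ℝ)) ^ d)) ^ ((d : ℝ)⁻¹) := by
    positivity
  have hpow : (Real.log n) ^ ((3 : ℝ) / u) ≤ (Real.log n) ^ ε :=
    Real.rpow_le_rpow_of_exponent_le hL hexp
  have hmul : max (pE n H) (1 / (n : ℝ)) * (Real.log n) ^ ((3 : ℝ) / u) *
        (1 + Real.log n / ((n : ℝ) * max (pE n H) (1 / (n : ℝ)) ^ d)) ^ ((d : ℝ)⁻¹) ≤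
      max (pE n H) (1 / (n : ℝ)) * (Real.log n) ^ ε *
        (1 + Real.log n / ((n : ℝ) * max (pE n H) (1 / (n : ℝ)) ^ d)) ^ ((d : ℝ)⁻¹) :=
    mul_le_mul_of_nonneg_right (mul_le_mul_of_nonneg_left hpow hP0) hR0
  exact ⟨h3.trans (mul_le_mul_of_nonneg_left hmul hC.le),
    h4.trans (mul_le_mul_of_nonneg_left hmul (by positivity))⟩

end Vale.Agent.Lib.P064Int
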